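import Vale.Agent.P183.Stmt

namespace Vale.Agent.P183

def Pres {X : Type} (r : Setoid X) (f : X → X) : Prop := ∀ s t, r s t → r (f s) (f t)

structure Cl {α X : Type} (le : α → α → Prop) (ρ : α → Setoid X) (a0 : α) : Prop where
  ord : ∀ a b, le a b ↔ ∀ s t, ρ a s t → ρ b s t
  anti : ∀ a b, le a b → le b a → a = b
  base : ∀ a, le a0 a
  cl : ∀ θ : Setoid X, (∀ s t, ρ a0 s t → θ s t) →
    (∀ f, (∀ a, Pres (ρ a) f) → Pres θ f) → ∃ a, θ = ρ a

lemma con_of_trans (A : FinAlg) (θ : Setoid (Fin (A.n + 1)))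
    (h : ∀ i v j, Pres θ fun s => A.op i (Function.update v j s)) : A.IsCon θ := by
  classical
  intro i v w hvw
  have key : ∀ S : Finset (Fin (A.ar i)), θ (A.op i v) (A.op i (S.piecewise w v)) := by
    intro S
    induction S using Finset.induction_on with
    | empty => simpa using θ.refl _
    | insert j S hj ih =>
      rw [Finset.piecewise_insert]
      refine θ.trans ih ?_
      have h1 := h i (S.piecewise w v) j (v j) (w j) (hvw j)
      have e : Function.update (S.piecewise w v) j (v j) = S.piecewise w v := by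
        have : v j = S.piecewise w v j := by simp [Finset.piecewise, hj]
        rw [this, Function.update_eq_self]
      simpa only [e] using h1
  simpa using key Finset.univ

lemma Rep.exists_cl {L : Type} [PartialOrder L] (h : Rep L (· ≤ ·)) :
    ∃ (n : ℕ) (ρ : L → Setoid (Fin (n + 1))), (∀ a b, a ≤ b ↔ ∀ s t, ρ a s t → ρ b s t) ∧
      ∀ θ : Setoid (Fin (n + 1)), (∀ f, (∀ a, Pres (ρ a) f) → Pres θ f) → ∃ a, θ = ρ a := by
  classical
  obtain ⟨A, e, he⟩ := h
  refine ⟨A.n, fun a => (e a).1, he, fun θ hθ => ?_⟩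
  have hc : A.IsCon θ := by
    refine con_of_trans A θ fun i v j => hθ _ fun a s t hst => (e a).2 i _ _ fun j' => ?_
    by_cases hj : j' = j
    · subst hj; simpa using hst
    · simpa [Function.update_of_ne hj] using (e a).1.refl _
  exact ⟨e.symm ⟨θ, hc⟩, by simp⟩

lemma Cl.rep {α X : Type} [Finite X] [Nonempty X] {le : α → α → Prop} {ρ : α → Setoid X} {a0 : α}
    (h : Cl le ρ a0) : Rep α le := by
  classical
  have hb : ∀ a s t, ρ a0 s t → ρ a s t := fun a => (h.ord _ _).1 (h.base a)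
  haveI : Nonempty (Quotient (ρ a0)) := ⟨Quotient.mk _ (Classical.arbitrary X)⟩
  obtain ⟨n, hn⟩ : ∃ n, Nat.card (Quotient (ρ a0)) = n + 1 :=
    Nat.exists_eq_succ_of_ne_zero (Nat.card_pos (α := Quotient (ρ a0))).ne'
  let φ : Quotient (ρ a0) ≃ Fin (n + 1) := (Finite.equivFin _).trans (finCongr hn)
  let π : X → Fin (n + 1) := fun s => φ (Quotient.mk _ s)
  let ψ : Fin (n + 1) → X := fun p => (φ.symm p).out
  have πψ : ∀ p, π (ψ p) = p := fun p => by simp [π, ψ]
  have ψπ : ∀ s, ρ a0 (ψ (π s)) s := fun s => by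
    simp only [π, ψ, Equiv.symm_apply_apply]
    exact Quotient.exact (Quotient.out_eq _)
  have πeq : ∀ s t, ρ a0 s t → π s = π t := fun s t hst => by
    simp only [π]; rw [Quotient.sound hst]
  let ρ' : α → Setoid (Fin (n + 1)) := fun a => Setoid.comap ψ (ρ a)
  have hρ' : ∀ a s t, ρ' a (π s) (π t) ↔ ρ a s t := fun a s t =>
    ⟨fun hh => (ρ a).trans ((ρ a).symm (hb a _ _ (ψπ s))) ((ρ a).trans hh (hb a _ _ (ψπ t))),
     fun hh => (ρ a).trans (hb a _ _ (ψπ s)) ((ρ a).trans hh ((ρ a).symm (hb a _ _ (ψπ t))))⟩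
  let G := {g : Fin (n + 1) → Fin (n + 1) // ∀ a, Pres (ρ' a) g}
  let en : G ≃ Fin (Nat.card G) := Finite.equivFin G
  let A : FinAlg := ⟨n, Nat.card G, fun _ => 1, fun i v => (en.symm i).1 (v 0)⟩
  have hA : ∀ r : Setoid (Fin (n + 1)), A.IsCon r ↔ ∀ g : G, Pres r g.1 := fun r =>
    ⟨fun hr g s t hst => by
      have := hr (en g) (fun _ => s) (fun _ => t) fun _ => hst
      simpa [A] using this,
     fun hr i v w hvw => hr (en.symm i) _ _ (hvw 0)⟩
  let F : α → {r : Setoid (Fin (A.n + 1)) // A.IsCon r} := fun a =>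
    ⟨ρ' a, (hA _).2 fun g => g.2 a⟩
  have hord : ∀ a b, le a b ↔ ∀ s t, (F a).1 s t → (F b).1 s t := fun a b => by
    rw [h.ord]
    exact ⟨fun hh s t hst => hh _ _ hst,
      fun hh s t hst => (hρ' b s t).1 (hh _ _ ((hρ' a s t).2 hst))⟩
  have hinj : Function.Injective F := fun a b hab =>
    h.anti a b ((hord a b).2 fun s t hst => hab ▸ hst) ((hord b a).2 fun s t hst => hab ▸ hst)
  have hsurj : Function.Surjective F := by
    rintro ⟨r, hr⟩
    have hr' := (hA r).1 hr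
    obtain ⟨a, ha⟩ := h.cl (Setoid.comap π r)
      (fun s t hst => by
        show r (π s) (π t)
        rw [πeq s t hst])
      (fun f hf s t hst => by
        have hg : ∀ a, Pres (ρ' a) (π ∘ f ∘ ψ) := fun a p q hpq =>
          (hρ' a _ _).2 (hf a _ _ hpq)
        have h1 : r (π (f (ψ (π s)))) (π (f (ψ (π t)))) := hr' ⟨_, hg⟩ (π s) (π t) hst
        rw [πeq _ _ (hf a0 _ _ (ψπ s)), πeq _ _ (hf a0 _ _ (ψπ t))] at h1
        exact h1)
    refine ⟨a, Subtype.ext ?_⟩
    ext p q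
    show ρ a (ψ p) (ψ q) ↔ r p q
    rw [← ha]
    show r (π (ψ p)) (π (ψ q)) ↔ r p q
    rw [πψ, πψ]
  exact ⟨A, Equiv.ofBijective F ⟨hinj, hsurj⟩, hord⟩

end Vale.Agent.P183
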