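import Vale.Agent.P183.Main

namespace Vale.Agent.P183

lemma Rep.of_bij {α β : Type} {le : α → α → Prop} {le' : β → β → Prop} (h : Rep β le')
    (F : α → β) (hord : ∀ a b, le a b ↔ le' (F a) (F b)) (hi : Function.Injective F)
    (hs : Function.Surjective F) : Rep α le := by
  obtain ⟨A, e, he⟩ := h
  exact ⟨A, (Equiv.ofBijective F ⟨hi, hs⟩).trans e, fun a b => (hord a b).trans (he _ _)⟩

lemma rep_prop : Rep Prop (· ≤ ·) := by
  let ρ : Prop → Setoid Bool := fun P =>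
    ⟨fun s t => P ∨ s = t, ⟨fun _ => Or.inr rfl, fun h => h.imp id Eq.symm,
      fun h1 h2 => h1.elim Or.inl fun e1 => h2.imp id fun e2 => e1.trans e2⟩⟩
  refine Cl.rep (ρ := ρ) (a0 := False) ⟨fun P Q => ⟨fun h s t hst => hst.imp h id, fun h hP => ?_⟩,
    fun P Q h1 h2 => le_antisymm h1 h2, fun P => False.elim, fun θ _ _ => ⟨θ true false, ?_⟩⟩
  · exact (h true false (Or.inl hP)).resolve_right (by simp)
  · ext s t
    show θ s t ↔ θ true false ∨ s = t
    cases s <;> cases t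
    · exact ⟨fun _ => Or.inr rfl, fun _ => θ.refl _⟩
    · exact ⟨fun h => Or.inl (θ.symm h), fun h => θ.symm (h.resolve_right (by simp))⟩
    · exact ⟨Or.inl, fun h => h.resolve_right (by simp)⟩
    · exact ⟨fun _ => Or.inr rfl, fun _ => θ.refl _⟩

theorem rep_mul {L K : Type} [PartialOrder L] [OrderBot L] [Finite L] [PartialOrder K]
    [BoundedOrder K] (hL : Rep L (· ≤ ·)) (hK : Rep K (· ≤ ·)) (C : Set L) (hC : C.OrdConnected)
    (a : L) (ha : IsLeast C a) :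
    Rep {p : L × K // p.1 ∉ C → p.2 = ⊥}
      fun p q => p.1.1 ≤ q.1.1 ∧ (p.1.1 ∈ C → q.1.1 ∈ C → p.1.2 ≤ q.1.2) := by
  classical
  have up : ∀ x x', a ≤ x ∧ x ∉ C → x ≤ x' → a ≤ x' ∧ x' ∉ C := fun x x' h hx =>
    ⟨h.1.trans hx, fun h' => h.2 (hC.out ha.1 h' ⟨h.1, hx⟩)⟩
  let β : L → K := fun x => if a ≤ x ∧ x ∉ C then ⊤ else ⊥
  let γ : K → L := fun z => if z = ⊥ then a else ⊥
  have hβ : Monotone β := fun x x' hx => by
    simp only [β]
    by_cases h : a ≤ x ∧ x ∉ C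
    · rw [if_pos h, if_pos (up x x' h hx)]
    · rw [if_neg h]; exact bot_le
  have hc : ∀ m z, β m ≤ z ∨ γ z ≤ m := fun m z => by
    simp only [β, γ]
    by_cases h : a ≤ m ∧ m ∉ C
    · right; split_ifs
      · exact h.1
      · exact bot_le
    · left; rw [if_neg h]; exact bot_le
  have hγ : ∀ x y, (y = ⊥ ∨ a ≤ x) → ∀ z, y ≤ z ∨ γ z ≤ x := fun x y h z => by
    rcases h with rfl | h
    · exact Or.inl bot_le
    · right; simp only [γ]; split_ifs
      · exact h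
      · exact bot_le
  refine (rep_glue hL hK β γ hβ hc).of_bij
    (fun p => ⟨(p.1.1, if a ≤ p.1.1 ∧ p.1.1 ∉ C then ⊤ else p.1.2), ?_, hγ _ _ ?_⟩) ?_ ?_ ?_
  · simp only [β]; split_ifs
    · exact le_rfl
    · exact bot_le
  · by_cases h : a ≤ p.1.1
    · exact Or.inr h
    · left
      rw [if_neg fun hh => h hh.1]
      exact p.2 fun hh => h (ha.2 hh)
  · rintro ⟨⟨x, y⟩, hp⟩ ⟨⟨x', y'⟩, hq⟩
    refine and_congr_right fun hx : x ≤ x' => ?_
    show (x ∈ C → x' ∈ C → y ≤ y') ↔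
      (if a ≤ x ∧ x ∉ C then ⊤ else y) ≤ if a ≤ x' ∧ x' ∉ C then ⊤ else y'
    constructor
    · intro h
      by_cases h2 : a ≤ x' ∧ x' ∉ C
      · rw [if_pos h2]; exact le_top
      rw [if_neg h2, if_neg fun hh => h2 (up x x' hh hx)]
      by_cases h1 : x ∈ C
      · refine h h1 ?_
        by_contra h3
        exact h2 ⟨(ha.2 h1).trans hx, h3⟩
      · rw [show y = ⊥ from hp h1]; exact bot_le
    · intro h h1 h2
      rwa [if_neg fun hh => hh.2 h1, if_neg fun hh => hh.2 h2] at h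
  · rintro ⟨⟨x, y⟩, hp⟩ ⟨⟨x', y'⟩, hq⟩ h
    have h1 : x = x' := congrArg (fun p => p.1.1) h
    subst h1
    have h2 : (if a ≤ x ∧ x ∉ C then ⊤ else y) = if a ≤ x ∧ x ∉ C then ⊤ else y' :=
      congrArg (fun p => p.1.2) h
    by_cases h3 : x ∈ C
    · rw [if_neg fun hh => hh.2 h3, if_neg fun hh => hh.2 h3] at h2
      subst h2; rfl
    · have e1 : y = ⊥ := hp h3
      have e2 : y' = ⊥ := hq h3
      subst e1 e2; rfl
  · rintro ⟨⟨x, y⟩, h1, h2⟩
    refine ⟨⟨(x, if x ∈ C then y else ⊥), fun h => if_neg h⟩, Subtype.ext (Prod.ext rfl ?_)⟩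
    show (if a ≤ x ∧ x ∉ C then ⊤ else if x ∈ C then y else ⊥) = y
    by_cases h3 : a ≤ x ∧ x ∉ C
    · rw [if_pos h3]
      have : β x ≤ y := h1
      simp only [β, if_pos h3] at this
      exact (top_le_iff.1 this).symm
    · rw [if_neg h3]
      split_ifs with h4
      · rfl
      · rcases h2 ⊥ with h5 | h5
        · exact (le_bot_iff.1 h5).symm
        · exact absurd ⟨by simpa [γ] using h5, h4⟩ h3

end Vale.Agent.P183
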