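import Vale.Agent.P183.Glue

namespace Vale.Agent.P183

variable {L X X' : Type} {D : Data L X X'}

section
variable {θ : Setoid (Y D)} {x : Setoid X} {y : Setoid X'}

lemma red (H2 : ∀ F : Y D → X, Univ F → ∀ s t, θ s t → x (F s) (F t)) {s t : Y D} (h : θ s t) :
    gen D x y s t ∨ ∃ s', (∀ i j h p, s' ≠ Y.cp i j h p) ∧ gen D x y s s' := by
  rcases s with u | ⟨i, j, hj⟩ | ⟨i, k, hk, p⟩
  · exact Or.inr ⟨_, fun _ _ _ _ => by simp, (gen D x y).refl _⟩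
  · exact Or.inr ⟨_, fun _ _ _ _ => by simp, (gen D x y).refl _⟩
  by_cases hc : ∃ q, t = Y.cp i k hk q
  · obtain ⟨q, rfl⟩ := hc
    obtain ⟨l, -, F, hF, f1, -⟩ := fold' i hk 0
    have := H2 F hF _ _ h
    rw [f1, f1] at this
    exact Or.inl (gen_of (E.cp i k hk p q this))
  obtain ⟨k0, hk0⟩ : ∃ k0, ∀ l, l ≠ k0 → ∀ h p, t ≠ Y.cp i l h p := by
    rcases t with u | ⟨i', j, hj⟩ | ⟨i', k', hk', q⟩
    · exact ⟨0, fun _ _ _ _ => by simp⟩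
    · exact ⟨0, fun _ _ _ _ => by simp⟩
    · refine ⟨k', fun l hl h p he => hl ?_⟩
      injection he with _ h2
      exact h2.symm
  obtain ⟨l, hl, F, hF, f1, f2⟩ := fold' i hk k0
  have h1 := H2 F hF _ _ h
  rw [f1] at h1
  refine Or.inr ?_
  rcases f2 t (fun h p he => hc ⟨p, he⟩) (hk0 l hl) with h2 | h2
  · rw [h2] at h1
    exact ⟨Y.node i k hk.le, fun _ _ _ _ => by simp,
      (gen D x y).trans (gen_of (E.cp i k hk _ _ h1)) (gen_of (E.entry i k hk))⟩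
  · rw [h2] at h1
    exact ⟨Y.node i (k + 1) hk, fun _ _ _ _ => by simp,
      (gen D x y).trans (gen_of (E.cp i k hk _ _ h1)) (gen_of (E.exit i k hk))⟩

lemma sep (H2 : ∀ F : Y D → X, Univ F → ∀ s t, θ s t → x (F s) (F t)) (i : Idx D) {k l j : ℕ}
    (hl : l < 3 * D.R) (hs : g D i.1.2.2 l = (g D i.1.2.2 k).swap)
    (hb : ¬ x (g D i.1.2.2 k).1 (g D i.1.2.2 k).2) (h1 : k < j) (h2 : j ≤ l) (hj : j ≤ 3 * D.R)
    {t : Y D} (h : θ (Y.node i j hj) t) (ht : ∀ i j h p, t ≠ Y.cp i j h p) :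
    ∃ j' h', t = Y.node i j' h' ∧ k < j' ∧ j' ≤ l := by
  obtain ⟨F, hF, -, -, f1, f2, f3, -⟩ := fold i (by omega : k < l) hl hs
  have h3 := H2 F hF _ _ h
  rw [f1 j hj h1 h2] at h3
  rcases t with u | ⟨i', j', hj'⟩ | ⟨i', k', hk', q⟩
  · rw [f3] at h3
    exact absurd (x.symm h3) hb
  · by_cases hc : i' = i ∧ k < j' ∧ j' ≤ l
    · obtain ⟨rfl, hc⟩ := hc
      exact ⟨j', hj', rfl, hc⟩
    · rw [f2 i' j' hj' hc] at h3
      exact absurd (x.symm h3) hb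
  · exact absurd rfl (ht i' k' hk' q)

lemma sep' (H2 : ∀ F : Y D → X, Univ F → ∀ s t, θ s t → x (F s) (F t)) (i : Idx D) {k l j j' : ℕ}
    (hl : l < 3 * D.R) (hk : k < 3 * D.R) (hs : g D i.1.2.2 l = (g D i.1.2.2 k).swap)
    (hb : ¬ x (g D i.1.2.2 k).1 (g D i.1.2.2 k).2) (hj : j ≤ 3 * D.R) (hj' : j' ≤ 3 * D.R)
    (h : θ (Y.node i j hj) (Y.node i j' hj')) :
    ((k < j ∧ j ≤ l → k < j' ∧ j' ≤ l) ∧ (k < j' ∧ j' ≤ l → k < j ∧ j ≤ l)) ∧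
      ((l < j ∧ j ≤ k → l < j' ∧ j' ≤ k) ∧ (l < j' ∧ j' ≤ k → l < j ∧ j ≤ k)) := by
  have hs' : g D i.1.2.2 k = (g D i.1.2.2 l).swap := by rw [hs, Prod.swap_swap]
  have hb' : ¬ x (g D i.1.2.2 l).1 (g D i.1.2.2 l).2 := by
    rw [hs]; exact fun hh => hb (x.symm hh)
  refine ⟨⟨fun a => ?_, fun a => ?_⟩, fun a => ?_, fun a => ?_⟩
  · obtain ⟨j1, h1, e1, e2⟩ := sep H2 i hl hs hb a.1 a.2 hj h (fun _ _ _ _ => by simp)
    injection e1 with _ e3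
    exact e3 ▸ e2
  · obtain ⟨j1, h1, e1, e2⟩ := sep H2 i hl hs hb a.1 a.2 hj' (θ.symm h) (fun _ _ _ _ => by simp)
    injection e1 with _ e3
    exact e3 ▸ e2
  · obtain ⟨j1, h1, e1, e2⟩ := sep H2 i hk hs' hb' a.1 a.2 hj h (fun _ _ _ _ => by simp)
    injection e1 with _ e3
    exact e3 ▸ e2
  · obtain ⟨j1, h1, e1, e2⟩ := sep H2 i hk hs' hb' a.1 a.2 hj' (θ.symm h) (fun _ _ _ _ => by simp)
    injection e1 with _ e3
    exact e3 ▸ e2

lemma one (H2 : ∀ F : Y D → X, Univ F → ∀ s t, θ s t → x (F s) (F t)) {s t : Y D} (h : θ s t)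
    (hs : ∀ i j h p, s ≠ Y.cp i j h p) (ht : ∀ i j h p, t ≠ Y.cp i j h p) :
    gen D x y s t ∨ ∃ w, gen D x y s (Y.base w) := by
  rcases s with u | ⟨i, j, hj⟩ | ⟨i, k, hk, p⟩
  · exact Or.inr ⟨u, (gen D x y).refl _⟩
  swap
  · exact absurd rfl (hs i k hk p)
  by_cases c1 : ∀ k, 0 ≤ k → k < j → x (g D i.1.2.2 k).1 (g D i.1.2.2 k).2
  · exact Or.inr ⟨_, (gen D x y).trans ((gen D x y).symm (chain i (Nat.zero_le j) hj c1))
      (gen_of (E.left i))⟩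
  by_cases c2 : ∀ k, j ≤ k → k < 3 * D.R → x (g D i.1.2.2 k).1 (g D i.1.2.2 k).2
  · exact Or.inr ⟨_, (gen D x y).trans (chain i hj le_rfl c2) (gen_of (E.right i))⟩
  push Not at c1 c2
  obtain ⟨k1, -, a1, b1⟩ := c1
  obtain ⟨k2, a2, a3, b2⟩ := c2
  obtain ⟨j', hj', rfl⟩ : ∃ j' h', t = Y.node i j' h' := by
    by_cases hc : j ≤ 2 * D.R
    · obtain ⟨l, l1, l2, l3⟩ := partner D i.1.2.2 k1 2
      obtain ⟨j', h', e, -⟩ := sep H2 i (by omega) l3 b1 a1 (by omega) hj h ht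
      exact ⟨j', h', e⟩
    · obtain ⟨l, l1, l2, l3⟩ := partner D i.1.2.2 k2 0
      have hs' : g D i.1.2.2 k2 = (g D i.1.2.2 l).swap := by rw [l3, Prod.swap_swap]
      have hb' : ¬ x (g D i.1.2.2 l).1 (g D i.1.2.2 l).2 := by
        rw [l3]; exact fun hh => b2 (x.symm hh)
      obtain ⟨j', h', e, -⟩ := sep H2 i a3 hs' hb' (by omega) a2 hj h ht
      exact ⟨j', h', e⟩
  refine Or.inl ?_
  obtain ⟨m1, m1a, m1b, m1c⟩ := partner D i.1.2.2 k1 1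
  obtain ⟨m2, m2a, m2b, m2c⟩ := partner D i.1.2.2 k2 1
  have s1 := sep' H2 i (by omega) (by omega) m1c b1 hj hj' h
  have s2 := sep' H2 i (by omega) (by omega) m2c b2 hj hj' h
  have key : ∀ k, k < 3 * D.R → (j ≤ k ∧ k < j' ∨ j' ≤ k ∧ k < j) →
      x (g D i.1.2.2 k).1 (g D i.1.2.2 k).2 := by
    intro k hk hjk
    by_contra hb
    obtain ⟨l0, l0a, l0b, l0c⟩ := partner D i.1.2.2 k 0
    obtain ⟨l2, l2a, l2b, l2c⟩ := partner D i.1.2.2 k 2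
    have s3 := sep' H2 i (by omega) hk l0c hb hj hj' h
    have s4 := sep' H2 i (by omega) hk l2c hb hj hj' h
    omega
  rcases le_total j j' with hjj | hjj
  · exact chain i hjj hj' fun k a b => key k (by omega) (Or.inl ⟨a, b⟩)
  · exact (gen D x y).symm (chain i hjj hj fun k a b => key k (by omega) (Or.inr ⟨a, b⟩))

lemma le_gen (H1 : ∀ s t, gen D x y s t → θ s t)
    (H2 : ∀ F : Y D → X, Univ F → ∀ s t, θ s t → x (F s) (F t))
    (H3 : ∀ u v, θ (Y.base u) (Y.base v) → y u v) {s t : Y D} (h : θ s t) : gen D x y s t := by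
  rcases red (y := y) H2 h with h1 | ⟨s', q1, h1⟩
  · exact h1
  have h2 : θ t s' := θ.trans (θ.symm h) (H1 _ _ h1)
  rcases red (y := y) H2 h2 with h3 | ⟨t', q2, h3⟩
  · exact (gen D x y).trans h1 ((gen D x y).symm h3)
  have h4 : θ s' t' := θ.trans (θ.symm h2) (H1 _ _ h3)
  refine (gen D x y).trans h1 ((gen D x y).trans ?_ ((gen D x y).symm h3))
  rcases one (y := y) H2 h4 q1 q2 with h5 | ⟨w, h5⟩
  · exact h5
  rcases one (y := y) H2 (θ.symm h4) q2 q1 with h6 | ⟨w', h6⟩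
  · exact (gen D x y).symm h6
  have h7 : θ (Y.base w) (Y.base w') :=
    θ.trans (θ.symm (H1 _ _ h5)) (θ.trans h4 (H1 _ _ h6))
  exact (gen D x y).trans h5 ((gen D x y).trans (gen_of (E.base w w' (H3 w w' h7)))
    ((gen D x y).symm h6))

end

end Vale.Agent.P183
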