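import Mathlib

namespace Vale.Agent.P183

/-- the join dependency relation `q D r` between join-irreducible elements -/
def Dep {M : Type} [Lattice M] (q r : M) : Prop :=
  SupIrred q ∧ SupIrred r ∧ q ≠ r ∧ ∃ x, q ≤ r ⊔ x ∧ ∀ r' < r, ¬ q ≤ r' ⊔ x

/-- `f` identifies `q` with a strictly smaller element -/
def Collapsed {M L : Type} [Lattice M] (f : M → L) (q : M) : Prop := ∃ x < q, f x = f q

end Vale.Agent.P183
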