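import Vale.Agent.P183.Rel

namespace Vale.Agent.P183

section
variable {S ι : Type} [Group S]

def KP (S : Type) [Group S] (π : Setoid ι) : Subgroup (ι → S) where
  carrier := {x | ∀ i j, π i j → x i = x j}
  one_mem' := fun _ _ _ => rfl
  mul_mem' := fun {x y} hx hy i j h => by simp only [Pi.mul_apply, hx i j h, hy i j h]
  inv_mem' := fun {x} hx i j h => by simp only [Pi.inv_apply, hx i j h]

def piK (K : Subgroup (ι → S)) : Setoid ι :=
  ⟨fun i j => ∀ x ∈ K, x i = x j, fun _ _ _ => rfl, fun h x hx => (h x hx).symm,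
    fun h1 h2 x hx => (h1 x hx).trans (h2 x hx)⟩

def NJ (K : Subgroup (ι → S)) (i : ι) (J : Set ι) : Subgroup S where
  carrier := {s | ∃ x ∈ K, x i = s ∧ ∀ j ∈ J, x j = 1}
  one_mem' := ⟨1, K.one_mem, rfl, fun _ _ => rfl⟩
  mul_mem' := by
    rintro _ _ ⟨x, hx, rfl, h1⟩ ⟨y, hy, rfl, h2⟩
    exact ⟨x * y, K.mul_mem hx hy, rfl, fun j hj => by simp [h1 j hj, h2 j hj]⟩
  inv_mem' := by
    rintro _ ⟨x, hx, rfl, h1⟩
    exact ⟨x⁻¹, K.inv_mem hx, rfl, fun j hj => by simp [h1 j hj]⟩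

lemma NJ_top [IsSimpleGroup S] {K : Subgroup (ι → S)} (hD : ∀ s : S, (fun _ => s) ∈ K) {i : ι}
    {J : Set ι} {s : S} (hs : s ≠ 1) (h : s ∈ NJ K i J) : NJ K i J = ⊤ := by
  have hn : (NJ K i J).Normal := ⟨by
    rintro _ ⟨x, hx, rfl, h1⟩ g
    exact ⟨(fun _ => g) * x * (fun _ => g)⁻¹, K.mul_mem (K.mul_mem (hD g) hx) (K.inv_mem (hD g)),
      rfl, fun j hj => by simp [h1 j hj]⟩⟩
  refine (hn.eq_bot_or_eq_top).resolve_left fun e => hs ?_
  rwa [e, Subgroup.mem_bot] at h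

lemma eq_KP [IsSimpleGroup S] [Finite ι] (hc : ∃ a b : S, a * b ≠ b * a) {K : Subgroup (ι → S)}
    (hD : ∀ s : S, (fun _ => s) ∈ K) : K = KP S (piK K) := by
  classical
  obtain ⟨a, b, hab⟩ := hc
  have one : ∀ i j, ¬ piK K i j → NJ K i {j} = ⊤ := fun i j h => by
    obtain ⟨x, hx, hne⟩ : ∃ x ∈ K, x i ≠ x j := by
      by_contra hh
      push Not at hh
      exact h hh
    exact NJ_top hD (s := x i * (x j)⁻¹) (fun e => hne (mul_inv_eq_one.1 e))
      ⟨x * (fun _ => x j)⁻¹, K.mul_mem hx (K.inv_mem (hD _)), rfl, fun k hk => by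
        rw [Set.mem_singleton_iff.1 hk]; simp⟩
  have many : ∀ i (T : Finset ι), (∀ j ∈ T, ¬ piK K i j) → NJ K i T = ⊤ := fun i T => by
    induction T using Finset.induction_on with
    | empty => exact fun _ => eq_top_iff.2 fun s _ => ⟨fun _ => s, hD s, rfl, by simp⟩
    | insert j T hj ih =>
      intro h
      have h1 : a ∈ NJ K i T := by
        rw [ih fun k hk => h k (Finset.mem_insert_of_mem hk)]; trivial
      have h2 : b ∈ NJ K i {j} := by rw [one i j (h j (Finset.mem_insert_self _ _))]; trivial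
      obtain ⟨x, hx, xi, xT⟩ := h1
      obtain ⟨y, hy, yi, yj⟩ := h2
      refine NJ_top hD (s := a * b * (b * a)⁻¹) (fun e => hab (mul_inv_eq_one.1 e))
        ⟨x * y * (y * x)⁻¹, K.mul_mem (K.mul_mem hx hy) (K.inv_mem (K.mul_mem hy hx)),
          by simp [xi, yi], fun k hk => ?_⟩
      rcases Finset.mem_insert.1 (Finset.mem_coe.1 hk) with rfl | hk
      · simp [yj k rfl]
      · simp [xT k hk]
  refine le_antisymm (fun x hx i j h => h x hx) fun x hx => ?_
  have key : ∀ T : Finset ι, ∃ k ∈ K, ∀ i ∈ T, k i = x i := fun T => by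
    induction T using Finset.induction_on with
    | empty => exact ⟨1, K.one_mem, by simp⟩
    | insert i T hi ih =>
      obtain ⟨k, hk, h⟩ := ih
      by_cases hc : ∃ j ∈ T, piK K i j
      · obtain ⟨j, hj, hij⟩ := hc
        refine ⟨k, hk, fun l hl => ?_⟩
        rcases Finset.mem_insert.1 hl with rfl | hl
        · rw [hij k hk, h j hj, hx l j hij]
        · exact h l hl
      · push Not at hc
        have h1 : (k i)⁻¹ * x i ∈ NJ K i T := by rw [many i T hc]; trivial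
        obtain ⟨y, hy, yi, yT⟩ := h1
        refine ⟨k * y, K.mul_mem hk hy, fun l hl => ?_⟩
        rcases Finset.mem_insert.1 hl with rfl | hl
        · simp [yi]
        · simp [yT l hl, h l hl]
  have := Fintype.ofFinite ι
  obtain ⟨k, hk, h⟩ := key Finset.univ
  rwa [show x = k from funext fun i => (h i (Finset.mem_univ i)).symm]

end

lemma A5_nc : ∃ a b : alternatingGroup (Fin 5), a * b ≠ b * a :=
  ⟨⟨Equiv.swap 0 1 * Equiv.swap 1 2, Equiv.Perm.mem_alternatingGroup.2 (by decide)⟩,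
    ⟨Equiv.swap 0 1 * Equiv.swap 2 3, Equiv.Perm.mem_alternatingGroup.2 (by decide)⟩,
    fun h => absurd (congrArg (fun g : alternatingGroup (Fin 5) => g.1 0) h) (by decide)⟩

lemma Rep.exists_cl' {L : Type} {le : L → L → Prop} (h : Rep L le) :
    ∃ (n : ℕ) (ρ : L → Setoid (Fin (n + 1))), (∀ a b, le a b ↔ ∀ s t, ρ a s t → ρ b s t) ∧
      (∀ a b, le a b → le b a → a = b) ∧
      ∀ θ : Setoid (Fin (n + 1)), (∀ f, (∀ a, Pres (ρ a) f) → Pres θ f) → ∃ a, θ = ρ a := by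
  classical
  obtain ⟨A, e, he⟩ := h
  refine ⟨A.n, fun a => (e a).1, he, fun a b h1 h2 => e.injective (Subtype.ext ?_),
    fun θ hθ => ?_⟩
  · ext s t
    exact ⟨(he a b).1 h1 s t, (he b a).1 h2 s t⟩
  have hc : A.IsCon θ := by
    refine con_of_trans A θ fun i v j => hθ _ fun a s t hst => (e a).2 i _ _ fun j' => ?_
    by_cases hj : j' = j
    · subst hj; simpa using hst
    · simp [Function.update_of_ne hj]
  exact ⟨e.symm ⟨θ, hc⟩, by simp⟩

theorem rep_dual {L : Type} {le : L → L → Prop} (h : Rep L le) : Rep L fun a b => le b a := by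
  classical
  obtain ⟨n, ρ, ρo, ρa, ρc⟩ := h.exists_cl'
  obtain ⟨a0, h0⟩ := ρc ⊤ fun _ _ _ _ _ => trivial
  let S := alternatingGroup (Fin 5)
  obtain ⟨u, v, huv⟩ := A5_nc
  have hu : u ≠ 1 := fun e => huv (by rw [e, one_mul, mul_one])
  refine Cl.rep (X := Fin (n + 1) → S) (ρ := fun a => QuotientGroup.leftRel (KP S (ρ a))) (a0 := a0)
    ⟨fun a b => ?_, fun a b h1 h2 => ρa a b h2 h1,
      fun a => (ρo _ _).2 fun s t _ => by rw [← h0]; trivial, fun θ hb hθ => ?_⟩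
  · simp only [QuotientGroup.leftRel_apply]
    refine ⟨fun hh s t hst i j hij => hst i j ((ρo _ _).1 hh i j hij), fun hh => ?_⟩
    refine (ρo _ _).2 fun i j hij => ?_
    have h1 := hh 1 (fun k => if ρ a i k then u else 1) (fun k l hkl => by
      simp only [inv_one, one_mul]
      by_cases c : ρ a i k
      · rw [if_pos c, if_pos ((ρ a).trans c hkl)]
      · rw [if_neg c, if_neg fun c' => c ((ρ a).trans c' ((ρ a).symm hkl))]) i j hij
    simp only [inv_one, one_mul, if_pos ((ρ a).refl i)] at h1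
    by_contra c
    rw [if_neg c] at h1
    exact hu h1
  · have hl : ∀ g s t, θ s t → θ (g * s) (g * t) := fun g =>
      hθ (fun s => g * s) fun a s t hst => by
        simp only [QuotientGroup.leftRel_apply] at hst ⊢
        simpa [mul_assoc] using hst
    let K : Subgroup (Fin (n + 1) → S) :=
      { carrier := {g | θ 1 g}
        one_mem' := θ.refl _
        mul_mem' := fun {g h} hg hh => θ.trans hg (by simpa using hl g _ _ hh)
        inv_mem' := fun {g} hg => θ.symm (by simpa using hl g⁻¹ _ _ hg) }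
    have hD : ∀ s : S, (fun _ => s) ∈ K := fun s => hb _ _ (by
      rw [QuotientGroup.leftRel_apply]
      exact fun _ _ _ => rfl)
    obtain ⟨a, ha⟩ := ρc (piK K) fun f hf i j hij x hx =>
      hij (x ∘ f) (hθ (fun y => y ∘ f) (fun a s t hst => by
        simp only [QuotientGroup.leftRel_apply] at hst ⊢
        exact fun k l hkl => hst _ _ (hf a _ _ hkl)) 1 x hx)
    refine ⟨a, ?_⟩
    ext s t
    rw [QuotientGroup.leftRel_apply, ← ha, ← eq_KP A5_nc hD]
    exact ⟨fun h => show θ 1 _ by simpa using hl s⁻¹ _ _ h,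
      fun h => by simpa using hl s _ _ (show θ 1 _ from h)⟩

theorem rep_rel_dual {M L : Type} [Lattice M] [OrderTop M] [Finite M] [Lattice L]
    (f : LatticeHom M L) (hf : Function.Surjective f) (hL : Rep L (· ≤ ·))
    (hD : ∀ q : Mᵒᵈ, ¬ Relation.TransGen
      (fun q r : Mᵒᵈ => Dep q r ∧ Collapsed (fun x : Mᵒᵈ => f (OrderDual.ofDual x)) q ∧
        Collapsed (fun x : Mᵒᵈ => f (OrderDual.ofDual x)) r) q q) : Rep M (· ≤ ·) := by
  have h1 : Rep L fun a b => b ≤ a := rep_dual hL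
  have h2 : Rep Mᵒᵈ (· ≤ ·) := rep_rel (M := Mᵒᵈ) (L := Lᵒᵈ) (LatticeHom.dual f) hf h1 hD
  have h3 := rep_dual h2
  exact h3

theorem rep_mul_dual {L K : Type} [PartialOrder L] [OrderTop L] [Finite L] [PartialOrder K]
    [BoundedOrder K] (hL : Rep L (· ≤ ·)) (hK : Rep K (· ≤ ·)) (C : Set L) (hC : C.OrdConnected)
    (a : L) (ha : IsGreatest C a) :
    Rep {p : L × K // p.1 ∉ C → p.2 = ⊥}
      fun p q => p.1.1 ≤ q.1.1 ∧ (p.1.1 ∈ C → q.1.1 ∈ C → p.1.2 ≤ q.1.2) := by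
  classical
  have hL' : Rep L fun a b => b ≤ a := rep_dual hL
  have hK' : Rep K fun a b => b ≤ a := rep_dual hK
  have h0 := rep_dual (rep_mul (L := Lᵒᵈ) (K := Kᵒᵈ) hL' hK' C hC.dual a ha)
  have h1 : Rep {p : L × K // p.1 ∉ C → p.2 = ⊤}
      fun p q => p.1.1 ≤ q.1.1 ∧ (q.1.1 ∈ C → p.1.1 ∈ C → p.1.2 ≤ q.1.2) := h0
  refine h1.of_bij
    (fun p => ⟨(p.1.1, if p.1.1 ∈ C then p.1.2 else (⊤ : K)), fun h => if_neg h⟩) ?_ ?_ ?_
  · rintro ⟨⟨x, y⟩, hp⟩ ⟨⟨x', y'⟩, hq⟩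
    show x ≤ x' ∧ (x ∈ C → x' ∈ C → y ≤ y') ↔
      x ≤ x' ∧ (x' ∈ C → x ∈ C → (if x ∈ C then y else ⊤) ≤ if x' ∈ C then y' else ⊤)
    refine and_congr Iff.rfl ⟨fun h h1 h2 => ?_, fun h h1 h2 => ?_⟩
    · rw [if_pos h1, if_pos h2]; exact h h2 h1
    · have h3 := h h2 h1
      rwa [if_pos h1, if_pos h2] at h3
  · rintro ⟨⟨x, y⟩, hp⟩ ⟨⟨x', y'⟩, hq⟩ h
    have e : x = x' := congrArg (fun p => p.1.1) h
    subst e
    have e2 : (if x ∈ C then y else (⊤ : K)) = if x ∈ C then y' else (⊤ : K) :=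
      congrArg (fun p => p.1.2) h
    by_cases c : x ∈ C
    · rw [if_pos c, if_pos c] at e2
      subst e2; rfl
    · have e3 : y = ⊥ := hp c
      have e4 : y' = ⊥ := hq c
      subst e3 e4; rfl
  · rintro ⟨⟨x, y⟩, h⟩
    by_cases c : x ∈ C
    · exact ⟨⟨(x, y), fun h' => absurd c h'⟩, Subtype.ext (Prod.ext rfl (if_pos c))⟩
    · exact ⟨⟨(x, ⊥), fun _ => rfl⟩, Subtype.ext (Prod.ext rfl ((if_neg c).trans (h c).symm))⟩

end Vale.Agent.P183
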