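import Vale.Agent.P183.Basic

namespace Vale.Agent.P183

structure Data (L X X' : Type) where
  ρ : L → Setoid X
  τ : L → Setoid X'
  R : ℕ
  e : ℕ → X × X
  he : ∀ (p : X × X) (b : ℕ), ∃ j, b * R ≤ j ∧ j < (b + 1) * R ∧ e j = p

variable {L X X' : Type} (D : Data L X X')

def Idx : Type := {i : X' × X' × L // D.τ i.2.2 i.1 i.2.1}

open Classical in
noncomputable def g (m : L) (j : ℕ) : X × X :=
  if D.ρ m (D.e j).1 (D.e j).2 then D.e j else ((D.e j).1, (D.e j).1)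

lemma g_rel (m : L) (j : ℕ) : D.ρ m (g D m j).1 (g D m j).2 := by
  unfold g
  split_ifs with h
  · exact h
  · exact (D.ρ m).refl _

lemma occ (m : L) (p : X × X) (hp : D.ρ m p.1 p.2) (b : ℕ) :
    ∃ j, b * D.R ≤ j ∧ j < (b + 1) * D.R ∧ g D m j = p := by
  obtain ⟨j, h1, h2, h3⟩ := D.he p b
  refine ⟨j, h1, h2, ?_⟩
  unfold g
  rw [h3, if_pos hp]

lemma partner (m : L) (k b : ℕ) :
    ∃ j, b * D.R ≤ j ∧ j < (b + 1) * D.R ∧ g D m j = (g D m k).swap :=
  occ D m _ ((D.ρ m).symm (g_rel D m k)) b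

inductive Y where
  | base : X' → Y
  | node : Idx D → (j : ℕ) → j ≤ 3 * D.R → Y
  | cp : Idx D → (j : ℕ) → j < 3 * D.R → X → Y

lemma finite_Y [Finite L] [Finite X] [Finite X'] : Finite (Y D) := by
  have : Finite (Idx D) := by unfold Idx; infer_instance
  refine Finite.of_surjective (α := X' ⊕ (Idx D × Fin (3 * D.R + 1)) ⊕ (Idx D × Fin (3 * D.R) × X))
    (Sum.elim Y.base (Sum.elim (fun p => Y.node p.1 p.2.1 (Nat.lt_succ_iff.1 p.2.2))
      fun p => Y.cp p.1 p.2.1.1 p.2.1.2 p.2.2)) ?_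
  rintro (u | ⟨i, j, h⟩ | ⟨i, j, h, s⟩)
  · exact ⟨Sum.inl u, rfl⟩
  · exact ⟨Sum.inr (Sum.inl (i, ⟨j, Nat.lt_succ_iff.2 h⟩)), rfl⟩
  · exact ⟨Sum.inr (Sum.inr (i, ⟨j, h⟩, s)), rfl⟩

inductive E (x : Setoid X) (y : Setoid X') : Y D → Y D → Prop where
  | base (u v : X') : y u v → E x y (Y.base u) (Y.base v)
  | cp (i : Idx D) (j : ℕ) (h : j < 3 * D.R) (s t : X) : x s t → E x y (Y.cp i j h s) (Y.cp i j h t)
  | left (i : Idx D) : E x y (Y.node i 0 (Nat.zero_le _)) (Y.base i.1.1)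
  | right (i : Idx D) : E x y (Y.node i (3 * D.R) le_rfl) (Y.base i.1.2.1)
  | entry (i : Idx D) (j : ℕ) (h : j < 3 * D.R) :
      E x y (Y.cp i j h (g D i.1.2.2 j).1) (Y.node i j h.le)
  | exit (i : Idx D) (j : ℕ) (h : j < 3 * D.R) :
      E x y (Y.cp i j h (g D i.1.2.2 j).2) (Y.node i (j + 1) h)

def gen (x : Setoid X) (y : Setoid X') : Setoid (Y D) := Relation.EqvGen.setoid (E D x y)

variable {D}

lemma gen_of {x : Setoid X} {y : Setoid X'} {s t : Y D} (h : E D x y s t) : gen D x y s t :=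
  Relation.EqvGen.rel _ _ h

lemma gen_map {Z : Type} {x : Setoid X} {y : Setoid X'} (ζ : Setoid Z) (F : Y D → Z)
    (h : ∀ s t, E D x y s t → ζ (F s) (F t)) {s t : Y D} (hst : gen D x y s t) :
    ζ (F s) (F t) := by
  induction hst with
  | rel s t hh => exact h s t hh
  | refl s => exact ζ.refl _
  | symm s t _ ih => exact ζ.symm ih
  | trans s t u _ _ ih1 ih2 => exact ζ.trans ih1 ih2

def mk {Z : Type} (a : X' → Z) (n : Idx D → ℕ → Z) (c : Idx D → ℕ → X → Z) : Y D → Z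
  | Y.base u => a u
  | Y.node i j _ => n i j
  | Y.cp i j _ s => c i j s

lemma mk_pres {Z : Type} {x : Setoid X} {y : Setoid X'} (ζ : Setoid Z) (a : X' → Z)
    (n : Idx D → ℕ → Z) (c : Idx D → ℕ → X → Z) (ha : ∀ u v, y u v → ζ (a u) (a v))
    (hc : ∀ i j s t, x s t → ζ (c i j s) (c i j t)) (h0 : ∀ i, ζ (n i 0) (a i.1.1))
    (hT : ∀ i, ζ (n i (3 * D.R)) (a i.1.2.1))
    (h1 : ∀ i j, ζ (c i j (g D i.1.2.2 j).1) (n i j))
    (h2 : ∀ i j, ζ (c i j (g D i.1.2.2 j).2) (n i (j + 1))) {s t : Y D} (hst : gen D x y s t) :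
    ζ (mk a n c s) (mk a n c t) := by
  refine gen_map ζ _ (fun s t h => ?_) hst
  cases h with
  | base u v h => exact ha u v h
  | cp i j h s t hh => exact hc i j s t hh
  | left i => exact h0 i
  | right i => exact hT i
  | entry i j h => exact h1 i j
  | exit i j h => exact h2 i j

open Classical in
noncomputable def walk (a : X' → X) (n : Idx D → ℕ → X) (act : Idx D → ℕ → Prop) : Y D → X :=
  mk a n fun i j s => if act i j then s else n i j

lemma walk_pres {x : Setoid X} {y : Setoid X'} (a : X' → X) (n : Idx D → ℕ → X)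
    (act : Idx D → ℕ → Prop) (ha : ∀ u v, y u v → x (a u) (a v)) (h0 : ∀ i, n i 0 = a i.1.1)
    (hT : ∀ i, n i (3 * D.R) = a i.1.2.1)
    (h1 : ∀ i j, act i j → g D i.1.2.2 j = (n i j, n i (j + 1)))
    (h2 : ∀ i j, ¬ act i j → n i j = n i (j + 1)) {s t : Y D} (hst : gen D x y s t) :
    x (walk a n act s) (walk a n act t) := by
  refine mk_pres x a n _ ha (fun i j s t h => ?_) (fun i => by rw [h0]) (fun i => by rw [hT])
    (fun i j => ?_) (fun i j => ?_) hst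
  · split_ifs
    · exact h
    · exact x.refl _
  · split_ifs with h
    · rw [h1 i j h]
    · exact x.refl _
  · split_ifs with h
    · rw [h1 i j h]
    · rw [h2 i j h]

def Univ (F : Y D → X) : Prop :=
  ∀ (x : Setoid X) (y : Setoid X') (s t : Y D), gen D x y s t → x (F s) (F t)

lemma fold (i : Idx D) {k l : ℕ} (hkl : k < l) (hl : l < 3 * D.R)
    (hs : g D i.1.2.2 l = (g D i.1.2.2 k).swap) :
    ∃ F : Y D → X, Univ F ∧ (∀ h p, F (Y.cp i k h p) = p) ∧ (∀ h p, F (Y.cp i l h p) = p) ∧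
      (∀ j h, k < j → j ≤ l → F (Y.node i j h) = (g D i.1.2.2 k).2) ∧
      (∀ i' j h, ¬ (i' = i ∧ k < j ∧ j ≤ l) → F (Y.node i' j h) = (g D i.1.2.2 k).1) ∧
      (∀ u, F (Y.base u) = (g D i.1.2.2 k).1) ∧
      ∀ t, (∀ h p, t ≠ Y.cp i k h p) → (∀ h p, t ≠ Y.cp i l h p) →
        F t = (g D i.1.2.2 k).1 ∨ F t = (g D i.1.2.2 k).2 := by
  classical
  let n : Idx D → ℕ → X := fun i' j =>
    if i' = i ∧ k < j ∧ j ≤ l then (g D i.1.2.2 k).2 else (g D i.1.2.2 k).1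
  have hn : ∀ i' j, n i' j = (g D i.1.2.2 k).1 ∨ n i' j = (g D i.1.2.2 k).2 := fun i' j => by
    simp only [n]; split_ifs <;> simp
  refine ⟨walk (fun _ => (g D i.1.2.2 k).1) n fun i' j => i' = i ∧ (j = k ∨ j = l),
    fun x y s t hst => walk_pres _ _ _ (fun _ _ _ => x.refl _) (fun i' => ?_) (fun i' => ?_)
      (fun i' j h => ?_) (fun i' j h => ?_) hst,
    fun h p => ?_, fun h p => ?_, fun j h h1 h2 => ?_, fun i' j h h1 => ?_, fun u => rfl, ?_⟩
  · simp only [n]; rw [if_neg (by omega)]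
  · simp only [n]; rw [if_neg (by omega)]
  · obtain ⟨rfl, rfl | rfl⟩ := h
    · simp only [n]; rw [if_neg (by omega), if_pos ⟨trivial, by omega, by omega⟩]
    · simp only [n]; rw [if_pos ⟨trivial, by omega, by omega⟩, if_neg (by omega), hs]; rfl
  · simp only [n]
    by_cases hi : i' = i
    · have : j ≠ k ∧ j ≠ l := by
        constructor
        · rintro rfl; exact h ⟨hi, Or.inl rfl⟩
        · rintro rfl; exact h ⟨hi, Or.inr rfl⟩
      by_cases hj : k < j ∧ j ≤ l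
      · rw [if_pos ⟨hi, hj⟩, if_pos ⟨hi, by omega, by omega⟩]
      · rw [if_neg (fun hh => hj hh.2), if_neg (fun hh => hj (by omega))]
    · rw [if_neg (fun hh => hi hh.1), if_neg (fun hh => hi hh.1)]
  · simp [walk, mk]
  · simp [walk, mk]
  · show n i j = _
    simp only [n]; rw [if_pos ⟨trivial, h1, h2⟩]
  · show n i' j = _
    simp only [n]; rw [if_neg h1]
  · rintro (u | ⟨i', j, h⟩ | ⟨i', j, h, s⟩) h1 h2
    · exact Or.inl rfl
    · exact hn i' j
    · have : ¬ (i' = i ∧ (j = k ∨ j = l)) := by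
        rintro ⟨rfl, rfl | rfl⟩
        · exact h1 h s rfl
        · exact h2 h s rfl
      simp only [walk, mk]
      rw [if_neg this]
      exact hn i' j

lemma fold' (i : Idx D) {k : ℕ} (hk : k < 3 * D.R) (k0 : ℕ) :
    ∃ l, l ≠ k0 ∧ ∃ F : Y D → X, Univ F ∧ (∀ h p, F (Y.cp i k h p) = p) ∧
      ∀ t, (∀ h p, t ≠ Y.cp i k h p) → (∀ h p, t ≠ Y.cp i l h p) →
        F t = (g D i.1.2.2 k).1 ∨ F t = (g D i.1.2.2 k).2 := by
  obtain ⟨l, hl, h1, h2, hs⟩ : ∃ l, l < 3 * D.R ∧ l ≠ k ∧ l ≠ k0 ∧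
      g D i.1.2.2 l = (g D i.1.2.2 k).swap := by
    obtain ⟨l0, a0, b0, c0⟩ := partner D i.1.2.2 k 0
    obtain ⟨l1, a1, b1, c1⟩ := partner D i.1.2.2 k 1
    obtain ⟨l2, a2, b2, c2⟩ := partner D i.1.2.2 k 2
    by_cases e0 : l0 ≠ k ∧ l0 ≠ k0
    · exact ⟨l0, by omega, e0.1, e0.2, c0⟩
    by_cases e1 : l1 ≠ k ∧ l1 ≠ k0
    · exact ⟨l1, by omega, e1.1, e1.2, c1⟩
    exact ⟨l2, by omega, by omega, by omega, c2⟩
  refine ⟨l, h2, ?_⟩
  rcases lt_or_gt_of_ne h1 with h | h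
  · have hs' : g D i.1.2.2 k = (g D i.1.2.2 l).swap := by rw [hs, Prod.swap_swap]
    obtain ⟨F, hF, -, f2, -, -, -, f3⟩ := fold i h hk hs'
    refine ⟨F, hF, f2, fun t t1 t2 => ?_⟩
    rw [hs']
    exact (f3 t t2 t1).symm
  · obtain ⟨F, hF, f1, -, -, -, -, f3⟩ := fold i h hl hs
    exact ⟨F, hF, f1, f3⟩

lemma chain {x : Setoid X} {y : Setoid X'} (i : Idx D) {j j' : ℕ} (hj : j ≤ j')
    (h' : j' ≤ 3 * D.R) (hx : ∀ k, j ≤ k → k < j' → x (g D i.1.2.2 k).1 (g D i.1.2.2 k).2) :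
    gen D x y (Y.node i j (hj.trans h')) (Y.node i j' h') := by
  induction j', hj using Nat.le_induction with
  | base => exact (gen D x y).refl _
  | succ k hk ih =>
    have h1 := ih (by omega) fun k' a b => hx k' a (by omega)
    refine (gen D x y).trans h1 ((gen D x y).trans ((gen D x y).symm (gen_of (E.entry i k h')))
      ((gen D x y).trans (gen_of (E.cp i k h' _ _ (hx k hk (by omega)))) (gen_of (E.exit i k h'))))

end Vale.Agent.P183
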