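import Vale.Agent.P183.Core

namespace Vale.Agent.P183

section
variable {L X X' : Type} {D : Data L X X'}

lemma R_pos (D : Data L X X') : 0 < D.R := by
  obtain ⟨j, -, h, -⟩ := D.he (D.e 0) 0
  omega

lemma gen_mono {x x' : Setoid X} {y y' : Setoid X'} (hx : ∀ s t, x s t → x' s t)
    (hy : ∀ s t, y s t → y' s t) {s t : Y D} (h : gen D x y s t) : gen D x' y' s t := by
  refine gen_map (gen D x' y') id (fun s t h => gen_of ?_) h
  cases h with
  | base u v h => exact E.base u v (hy _ _ h)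
  | cp i j h s t hh => exact E.cp i j h s t (hx _ _ hh)
  | left i => exact E.left i
  | right i => exact E.right i
  | entry i j h => exact E.entry i j h
  | exit i j h => exact E.exit i j h

lemma gen_base {x : Setoid X} {y : Setoid X'}
    (hxy : ∀ m, (∀ s t, D.ρ m s t → x s t) → ∀ u v, D.τ m u v → y u v) {u v : X'}
    (h : gen D x y (Y.base u) (Y.base v)) : y u v := by
  classical
  have hk : ∀ i : Idx D, ∃ k, k < 3 * D.R ∧
      (x (g D i.1.2.2 k).1 (g D i.1.2.2 k).2 → y i.1.1 i.1.2.1) := by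
    intro i
    by_cases hb : ∃ k, k < 3 * D.R ∧ ¬ x (g D i.1.2.2 k).1 (g D i.1.2.2 k).2
    · obtain ⟨k, h1, h2⟩ := hb
      exact ⟨k, h1, fun hh => absurd hh h2⟩
    · push Not at hb
      refine ⟨0, by have := R_pos D; omega, fun _ => hxy i.1.2.2 (fun s t hst => ?_) _ _ i.2⟩
      obtain ⟨j, -, h1, h2⟩ := occ D i.1.2.2 (s, t) hst 0
      have := hb j (by omega)
      rwa [h2] at this
  choose k hk1 hk2 using hk
  let n : Idx D → ℕ → X' := fun i j => if j ≤ k i then i.1.1 else i.1.2.1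
  refine mk_pres y id n
    (fun i j s => if j = k i then (if x s (g D i.1.2.2 j).1 then i.1.1 else i.1.2.1) else n i j)
    (fun _ _ h => h) (fun i j s t hst => ?_) (fun i => ?_) (fun i => ?_) (fun i j => ?_)
    (fun i j => ?_) h
  · by_cases hj : j = k i
    · simp only [if_pos hj]
      by_cases h1 : x s (g D i.1.2.2 j).1
      · rw [if_pos h1, if_pos (x.trans (x.symm hst) h1)]
      · rw [if_neg h1, if_neg fun h2 => h1 (x.trans hst h2)]
    · simp only [if_neg hj]; exact y.refl _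
  · simp only [n]; rw [if_pos (Nat.zero_le _)]; exact y.refl _
  · simp only [n]; rw [if_neg (by have := hk1 i; omega)]; exact y.refl _
  · by_cases hj : j = k i
    · simp only [if_pos hj, n]
      rw [if_pos (x.refl _), if_pos hj.le]
    · simp only [if_neg hj]; exact y.refl _
  · by_cases hj : j = k i
    · simp only [if_pos hj, n]
      rw [if_neg (by omega : ¬ j + 1 ≤ k i)]
      split_ifs with h1
      · subst hj; exact hk2 i (x.symm h1)
      · exact y.refl _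
    · simp only [if_neg hj, n]
      by_cases h1 : j ≤ k i
      · rw [if_pos h1, if_pos (by omega)]
      · rw [if_neg h1, if_neg (by omega)]

def push (f : X' → X') (hf : ∀ m, Pres (D.τ m) f) : Y D → Y D
  | Y.base u => Y.base (f u)
  | Y.node i j h => Y.node ⟨(f i.1.1, f i.1.2.1, i.1.2.2), hf _ _ _ i.2⟩ j h
  | Y.cp i j h s => Y.cp ⟨(f i.1.1, f i.1.2.1, i.1.2.2), hf _ _ _ i.2⟩ j h s

lemma push_pres {x : Setoid X} {y : Setoid X'} (f : X' → X') (hf : ∀ m, Pres (D.τ m) f)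
    (hy : Pres y f) : Pres (gen D x y) (push f hf) := by
  intro s t h
  refine gen_map (gen D x y) _ (fun s t h => gen_of ?_) h
  cases h with
  | base u v h => exact E.base _ _ (hy _ _ h)
  | cp i j h s t hh => exact E.cp _ j h s t hh
  | left i => exact E.left ⟨(f i.1.1, f i.1.2.1, i.1.2.2), hf _ _ _ i.2⟩
  | right i => exact E.right ⟨(f i.1.1, f i.1.2.1, i.1.2.2), hf _ _ _ i.2⟩
  | entry i j h => exact E.entry ⟨(f i.1.1, f i.1.2.1, i.1.2.2), hf _ _ _ i.2⟩ j h
  | exit i j h => exact E.exit ⟨(f i.1.1, f i.1.2.1, i.1.2.2), hf _ _ _ i.2⟩ j h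

lemma exists_walk (a : X' → X) (ha : ∀ i : Idx D, D.ρ i.1.2.2 (a i.1.1) (a i.1.2.1)) :
    ∃ F : Y D → X, (∀ u, F (Y.base u) = a u) ∧ ∀ (x : Setoid X) (y : Setoid X'),
      (∀ u v, y u v → x (a u) (a v)) → ∀ s t, gen D x y s t → x (F s) (F t) := by
  classical
  have hk : ∀ i : Idx D, ∃ j, j < 3 * D.R ∧ g D i.1.2.2 j = (a i.1.1, a i.1.2.1) := fun i => by
    obtain ⟨j, -, h1, h2⟩ := occ D i.1.2.2 (a i.1.1, a i.1.2.1) (ha i) 0
    exact ⟨j, by omega, h2⟩
  choose k hk1 hk2 using hk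
  refine ⟨walk a (fun i j => if j ≤ k i then a i.1.1 else a i.1.2.1) fun i j => j = k i,
    fun u => rfl, fun x y hxy s t h => walk_pres _ _ _ hxy (fun i => ?_) (fun i => ?_)
      (fun i j hj => ?_) (fun i j hj => ?_) h⟩
  · rw [if_pos (Nat.zero_le _)]
  · rw [if_neg (by have := hk1 i; omega)]
  · rw [if_pos hj.le, if_neg (by omega), hj, hk2]
  · by_cases h1 : j ≤ k i
    · rw [if_pos h1, if_pos (by omega)]
    · rw [if_neg h1, if_neg (by omega)]

end

lemma exists_enum (X : Type) [Finite X] [Nonempty X] :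
    ∃ (R : ℕ) (e : ℕ → X), ∀ (p : X) (b : ℕ), ∃ j, b * R ≤ j ∧ j < (b + 1) * R ∧ e j = p := by
  have hpos : 0 < Nat.card X := Nat.card_pos
  refine ⟨Nat.card X, fun j => (Finite.equivFin X).symm ⟨j % Nat.card X, Nat.mod_lt _ hpos⟩,
    fun p b => ⟨b * Nat.card X + (Finite.equivFin X p).1, by omega, ?_, ?_⟩⟩
  · have := (Finite.equivFin X p).2
    rw [Nat.add_mul]; omega
  · rw [Equiv.symm_apply_eq]
    ext
    show (b * Nat.card X + (Finite.equivFin X p).1) % Nat.card X = _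
    rw [Nat.mul_add_mod_of_lt (Finite.equivFin X p).2]

theorem rep_glue {L K : Type} [PartialOrder L] [OrderBot L] [Finite L] [PartialOrder K]
    (hL : Rep L (· ≤ ·)) (hK : Rep K (· ≤ ·)) (β : L → K) (γ : K → L) (hβ : Monotone β)
    (hc : ∀ m z, β m ≤ z ∨ γ z ≤ m) :
    Rep {p : L × K // β p.1 ≤ p.2 ∧ ∀ z, p.2 ≤ z ∨ γ z ≤ p.1}
      fun p q => p.1.1 ≤ q.1.1 ∧ p.1.2 ≤ q.1.2 := by
  classical
  obtain ⟨n, ρ, ρo, ρc⟩ := hL.exists_cl
  obtain ⟨n', σ, σo, σc⟩ := hK.exists_cl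
  obtain ⟨R, e, he⟩ := exists_enum (Fin (n + 1) × Fin (n + 1))
  let D : Data L (Fin (n + 1)) (Fin (n' + 1)) := ⟨ρ, fun m => σ (β m), R, e, he⟩
  have : Finite (Y D) := finite_Y D
  have : Nonempty (Y D) := ⟨Y.base 0⟩
  have h0 : 0 < 3 * D.R := by have := R_pos D; omega
  let i0 : Idx D := ⟨(0, 0, ⊥), (σ (β ⊥)).refl _⟩
  obtain ⟨-, -, F0, hF0, f0, -⟩ := fold' i0 h0 0
  refine Cl.rep (ρ := fun p => gen D (ρ p.1.1) (σ p.1.2))
    (a0 := ⟨(⊥, β ⊥), le_rfl, fun z => hc ⊥ z⟩) ⟨fun p q => ⟨fun h s t hst => ?_, fun h => ⟨?_, ?_⟩⟩,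
      fun p q h1 h2 => Subtype.ext (Prod.ext (le_antisymm h1.1 h2.1) (le_antisymm h1.2 h2.2)),
      fun p => ⟨bot_le, (hβ bot_le).trans p.2.1⟩, fun θ hb hθ => ?_⟩
  · exact gen_mono ((ρo _ _).1 h.1) ((σo _ _).1 h.2) hst
  · refine (ρo _ _).2 fun s t hst => ?_
    have := hF0 _ _ _ _ (h _ _ (gen_of (E.cp i0 0 h0 s t hst)))
    rwa [f0, f0] at this
  · refine (σo _ _).2 fun u v huv => gen_base (D := D) (fun m hm => ?_)
      (h _ _ (gen_of (E.base u v huv)))
    exact (σo _ _).1 ((hβ ((ρo _ _).2 hm)).trans q.2.1)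
  have good : ∀ F : Y D → Fin (n + 1),
      (∀ p : {p : L × K // β p.1 ≤ p.2 ∧ ∀ z, p.2 ≤ z ∨ γ z ≤ p.1}, ∀ s t,
        gen D (ρ p.1.1) (σ p.1.2) s t → ρ p.1.1 (F s) (F t)) →
      ∀ i k h s t, θ s t → θ (Y.cp i k h (F s)) (Y.cp i k h (F t)) :=
    fun F hF i k h => hθ (fun s => Y.cp i k h (F s)) fun p s t hst =>
      gen_of (E.cp i k h _ _ (hF p s t hst))
  obtain ⟨x0, hx0⟩ := ρc (Setoid.comap (Y.cp i0 0 h0) θ) fun f hf s t hst => by
    have := good (fun s => f (F0 s)) (fun p s t h => hf _ _ _ (hF0 _ _ _ _ h)) i0 0 h0 _ _ hst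
    simp only [f0] at this
    exact this
  obtain ⟨y0, hy0⟩ := σc (Setoid.comap Y.base θ) fun f hf s t hst =>
    hθ (push f fun m => hf (β m)) (fun p => push_pres f _ (hf _)) _ _ hst
  have hx : ∀ s t, θ (Y.cp i0 0 h0 s) (Y.cp i0 0 h0 t) ↔ ρ x0 s t := fun s t => by
    rw [← hx0]; rfl
  have hy : ∀ s t, θ (Y.base s) (Y.base t) ↔ σ y0 s t := fun s t => by
    rw [← hy0]; rfl
  have H1 : ∀ s t, gen D (ρ x0) (σ y0) s t → θ s t := fun s t hst => by
    refine gen_map θ id (fun s t h => ?_) hst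
    cases h with
    | base u v h => exact (hy u v).2 h
    | cp i j h s t hh =>
      have := good F0 (fun p s t h => hF0 _ _ _ _ h) i j h _ _ ((hx s t).2 hh)
      simp only [f0] at this
      exact this
    | left i => exact hb _ _ (gen_of (E.left i))
    | right i => exact hb _ _ (gen_of (E.right i))
    | entry i j h => exact hb _ _ (gen_of (E.entry i j h))
    | exit i j h => exact hb _ _ (gen_of (E.exit i j h))
  have H2 : ∀ F : Y D → Fin (n + 1), Univ F → ∀ s t, θ s t → ρ x0 (F s) (F t) :=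
    fun F hF s t hst => (hx _ _).1 (good F (fun p s t h => hF _ _ _ _ h) i0 0 h0 s t hst)
  have m1 : β x0 ≤ y0 := (σo _ _).2 fun u v huv => by
    let i : Idx D := ⟨(u, v, x0), huv⟩
    have h1 : gen D (ρ x0) (σ y0) _ _ :=
      chain i (Nat.zero_le (3 * D.R)) le_rfl fun k _ _ => g_rel D x0 k
    exact (hy u v).1 (H1 _ _ ((gen D _ _).trans ((gen D _ _).symm (gen_of (E.left i)))
      ((gen D _ _).trans h1 (gen_of (E.right i)))))
  have m2 : ∀ z, y0 ≤ z ∨ γ z ≤ x0 := fun z => by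
    by_cases hz : y0 ≤ z
    · exact Or.inl hz
    rw [σo] at hz
    push Not at hz
    obtain ⟨u, v, huv, huv'⟩ := hz
    refine Or.inr ((ρo _ _).2 fun c d hcd => ?_)
    let a : Fin (n' + 1) → Fin (n + 1) := fun w => if σ z u w then c else d
    have ha : ∀ (x : L) (y : K), (y ≤ z ∨ γ z ≤ x) → ∀ w w', σ y w w' → ρ x (a w) (a w') := by
      rintro x y (h | h) w w' hw
      · have h1 := (σo _ _).1 h _ _ hw
        simp only [a]
        by_cases h2 : σ z u w
        · rw [if_pos h2, if_pos ((σ z).trans h2 h1)]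
        · rw [if_neg h2, if_neg fun h3 => h2 ((σ z).trans h3 ((σ z).symm h1))]
      · have h1 := (ρo _ _).1 h _ _ hcd
        simp only [a]
        split_ifs
        · exact (ρ x).refl _
        · exact h1
        · exact (ρ x).symm h1
        · exact (ρ x).refl _
    obtain ⟨F, f1, f2⟩ := exists_walk (D := D) a fun i => ha _ _ (hc i.1.2.2 z) _ _ i.2
    have h1 := (hx _ _).1 (good F (fun p s t h => f2 _ _ (ha _ _ (p.2.2 z)) s t h) i0 0 h0 _ _
      ((hy u v).2 huv))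
    rw [f1, f1] at h1
    simp only [a] at h1
    rwa [if_pos ((σ z).refl _), if_neg huv'] at h1
  refine ⟨⟨(x0, y0), m1, m2⟩, ?_⟩
  ext s t
  exact ⟨fun h => le_gen H1 H2 (fun u v => (hy u v).1) h, H1 s t⟩

end Vale.Agent.P183
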