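import Vale.Agent.P183.Cor
import Vale.Agent.P183.Dep

namespace Vale.Agent.P183

variable {M : Type} [Lattice M] [OrderBot M] [Finite M]

open Classical in
noncomputable def ik (T : Set M) (m : M) : M :=
  ((Set.toFinite {q | q ∈ T ∧ q ≤ m}).toFinset).sup id

lemma ik_le_iff {T : Set M} {m m' : M} : ik T m ≤ m' ↔ ∀ q ∈ T, q ≤ m → q ≤ m' := by
  simp [ik, Finset.sup_le_iff]

lemma ik_le (T : Set M) (m : M) : ik T m ≤ m := ik_le_iff.2 fun _ _ h => h

lemma le_ik {T : Set M} {m q : M} (hq : q ∈ T) (h : q ≤ m) : q ≤ ik T m :=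
  ik_le_iff.1 le_rfl q hq h

lemma ik_mono (T : Set M) {m m' : M} (h : m ≤ m') : ik T m ≤ ik T m' :=
  ik_le_iff.2 fun _ hq h' => le_ik hq (h'.trans h)

abbrev Fx (T : Set M) : Type := {m : M // m ≤ ik T m}

lemma ik_fix (T : Set M) (m : M) : ik T m ≤ ik T (ik T m) :=
  ik_le_iff.2 fun _ hq h => le_ik hq (le_ik hq h)

lemma irr_ind {P : M → Prop} (h0 : P ⊥) (h1 : ∀ a b, P a → P b → P (a ⊔ b))
    (h2 : ∀ a, SupIrred a → (∀ b < a, P b) → P a) (a : M) : P a := by
  induction a using WellFoundedLT.induction with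
  | ind a ih =>
    by_cases h : SupIrred a
    · exact h2 a h ih
    · rw [not_supIrred] at h
      rcases h with h | ⟨b, c, rfl, hb, hc⟩
      · rw [isMin_iff_eq_bot.1 h]; exact h0
      · exact h1 b c (ih b hb) (ih c hc)

lemma good_of_closed {T : Set M} (hJ : ∀ q ∈ T, SupIrred q)
    (hT : ∀ q ∈ T, ∀ r, Dep q r → r ∈ T) {q : M} (hq : q ∈ T) (a : M) :
    ∀ b, q ≤ a ⊔ b → q ≤ ik T a ⊔ b := by
  induction a using irr_ind with
  | h0 => exact fun b h => h.trans (sup_le_sup_right bot_le _)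
  | h1 a a' ih ih' =>
    intro b h
    have h1 := ih (a' ⊔ b) (by rwa [← sup_assoc])
    have h2 := ih' (ik T a ⊔ b) (by rwa [sup_left_comm])
    exact h2.trans (sup_le (le_sup_of_le_left (ik_mono T le_sup_right))
      (sup_le_sup_right (ik_mono T le_sup_left) _))
  | h2 a ha ih =>
    intro b h
    by_cases e : q = a
    · exact le_sup_of_le_left (le_ik hq e.le)
    by_cases c : ∃ r' < a, q ≤ r' ⊔ b
    · obtain ⟨r', h1, h2⟩ := c
      exact (ih r' h1 b h2).trans (sup_le_sup_right (ik_mono T h1.le) _)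
    · push Not at c
      have : a ∈ T := hT q hq a ⟨hJ q hq, ha, e, b, h, c⟩
      exact h.trans (sup_le_sup_right (le_ik this le_rfl) _)

lemma rep_step {T : Set M} (hg : ∀ q ∈ T, ∀ a b, q ≤ a ⊔ b → q ≤ ik T a ⊔ b) (p : M)
    (h : Rep (Fx T) (· ≤ ·)) : Rep (Fx (insert p T)) (· ≤ ·) := by
  classical
  let _ : OrderBot (Fx T) := { bot := ⟨⊥, bot_le⟩, bot_le := fun _ => (bot_le : (⊥ : M) ≤ _) }
  let β : Fx T → Prop := fun x => p ≤ x.1
  let γ : Prop → Fx T := fun z => if z then ⊥ else ⟨ik T p, ik_fix T p⟩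
  have hγ : ∀ (x : Fx T) (y : Prop), (y → ik T p ≤ x.1) → ∀ z, y ≤ z ∨ γ z ≤ x := fun x y h z => by
    by_cases hz : z
    · exact Or.inl fun _ => hz
    by_cases hy : y
    · right; simp only [γ]; rw [if_neg hz]; exact h hy
    · exact Or.inl fun hh => absurd hh hy
  have sub : ∀ m, ik T m ≤ ik (insert p T) m := fun m =>
    ik_le_iff.2 fun q hq h => le_ik (Set.mem_insert_of_mem p hq) h
  have hord : ∀ a b : Fx (insert p T), a ≤ b ↔ ik T a.1 ≤ ik T b.1 ∧ (p ≤ a.1 → p ≤ b.1) :=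
    fun a b => ⟨fun hh => ⟨ik_mono T hh, fun h1 => h1.trans hh⟩, fun hh =>
      a.2.trans (ik_le_iff.2 fun q hq h1 => by
        rcases hq with rfl | hq
        · exact hh.2 h1
        · exact (le_ik hq h1).trans (hh.1.trans (ik_le T _)))⟩
  refine (rep_glue h rep_prop β γ (fun x x' hx hp => le_trans hp hx)
    fun m z => hγ m (β m) (fun hp => (ik_le T p).trans hp) z).of_bij
    (fun a => ⟨(⟨ik T a.1, ik_fix T _⟩, p ≤ a.1), fun hp => le_trans hp (ik_le T _),
      hγ _ _ fun hp => ik_mono T hp⟩) hord ?_ ?_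
  · intro a b hab
    have h1 : ik T a.1 = ik T b.1 := congrArg (fun p => p.1.1.1) hab
    have h2 : (p ≤ a.1) = (p ≤ b.1) := congrArg (fun p => p.1.2) hab
    exact le_antisymm ((hord a b).2 ⟨h1.le, fun hh => h2 ▸ hh⟩)
      ((hord b a).2 ⟨h1.ge, fun hh => h2 ▸ hh⟩)
  · rintro ⟨⟨x, y⟩, h1, h2⟩
    by_cases hy : y
    · have h3 : ik T p ≤ x.1 := by
        rcases h2 False with h4 | h4
        · exact (h4 hy).elim
        · simp only [γ, if_false] at h4
          exact h4
      refine ⟨⟨p ⊔ x.1, sup_le (le_ik (Set.mem_insert _ _) le_sup_left)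
        (x.2.trans ((sub _).trans (ik_mono _ le_sup_right)))⟩,
        Subtype.ext (Prod.ext (Subtype.ext (le_antisymm ?_ ?_)) ?_)⟩
      · exact ik_le_iff.2 fun q hq hh => (hg q hq _ _ hh).trans (sup_le h3 le_rfl)
      · exact x.2.trans (ik_mono T le_sup_right)
      · exact propext ⟨fun _ => hy, fun _ => le_sup_left⟩
    · exact ⟨⟨x.1, x.2.trans (sub _)⟩, Subtype.ext (Prod.ext
        (Subtype.ext (le_antisymm (ik_le T _) x.2)) (propext ⟨fun hh => h1 hh, fun hh => absurd hh hy⟩))⟩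

theorem rep_rel {L : Type} [Lattice L] (f : LatticeHom M L) (hf : Function.Surjective f)
    (hL : Rep L (· ≤ ·))
    (hD : ∀ q, ¬ Relation.TransGen (fun q r => Dep q r ∧ Collapsed f q ∧ Collapsed f r) q q) :
    Rep M (· ≤ ·) := by
  classical
  let T0 : Set M := {q | SupIrred q ∧ ¬ Collapsed f q}
  have fm : ∀ {a b : M}, a ≤ b → f a ≤ f b := fun h => OrderHomClass.mono f h
  have nc : ∀ q y, ¬ Collapsed f q → f q ≤ f y → q ≤ y := fun q y h1 h2 => by
    by_contra h3
    exact h1 ⟨q ⊓ y, inf_lt_left.2 h3, by rw [map_inf, inf_eq_left.2 h2]⟩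
  have fik : ∀ m, f m ≤ f (ik T0 m) := fun m => by
    induction m using irr_ind with
    | h0 => exact fm bot_le
    | h1 a b ha hb =>
      rw [map_sup]
      exact sup_le (ha.trans (fm (ik_mono _ le_sup_left))) (hb.trans (fm (ik_mono _ le_sup_right)))
    | h2 a ha ih =>
      by_cases hc : Collapsed f a
      · obtain ⟨x, h1, h2⟩ := hc
        rw [← h2]
        exact (ih x h1).trans (fm (ik_mono _ h1.le))
      · exact fm (le_ik ⟨ha, hc⟩ le_rfl)
  have hord : ∀ a b : Fx T0, a ≤ b ↔ f a.1 ≤ f b.1 := fun a b =>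
    ⟨fun h => fm h, fun h => a.2.trans (ik_le_iff.2 fun q hq h1 => nc q _ hq.2 ((fm h1).trans h))⟩
  have r0 : Rep (Fx T0) (· ≤ ·) := by
    refine hL.of_bij (fun a => f a.1) hord
      (fun a b h => le_antisymm ((hord a b).2 h.le) ((hord b a).2 h.ge)) fun x => ?_
    obtain ⟨m, rfl⟩ := hf x
    exact ⟨⟨ik T0 m, ik_fix _ _⟩, le_antisymm (fm (ik_le _ _)) (fik m)⟩
  have c0 : ∀ q ∈ T0, ∀ r, Dep q r → r ∈ T0 := by
    rintro q hq r ⟨-, h2, -, x, h4, h5⟩
    refine ⟨h2, ?_⟩
    rintro ⟨r', h6, h7⟩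
    refine h5 r' h6 (nc q _ hq.2 ((fm h4).trans ?_))
    rw [map_sup, map_sup, h7]
  let R : M → M → Prop := fun r q =>
    Relation.TransGen (fun q r => Dep q r ∧ Collapsed f q ∧ Collapsed f r) q r
  have wf : WellFounded R := by
    have : IsTrans M R := ⟨fun a b c h1 h2 => Relation.TransGen.trans h2 h1⟩
    have : Std.Irrefl R := ⟨fun a => hD a⟩
    exact Finite.wellFounded_of_trans_of_irrefl R
  have main : ∀ (n : ℕ) (T : Set M), ({q | SupIrred q} \ T).ncard = n → T0 ⊆ T →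
      (∀ q ∈ T, SupIrred q) → (∀ q ∈ T, ∀ r, Dep q r → r ∈ T) → Rep (Fx T) (· ≤ ·) →
      Rep M (· ≤ ·) := by
    intro n
    induction n with
    | zero =>
      intro T hn _ _ _ hr
      rw [Set.ncard_eq_zero, Set.sdiff_eq_empty] at hn
      have hall : ∀ m, m ≤ ik T m := fun m => by
        induction m using irr_ind with
        | h0 => exact bot_le
        | h1 a b ha hb =>
          exact sup_le (ha.trans (ik_mono _ le_sup_left)) (hb.trans (ik_mono _ le_sup_right))
        | h2 a ha _ => exact le_ik (hn ha) le_rfl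
      exact hr.of_bij (fun m => ⟨m, hall m⟩) (fun _ _ => Iff.rfl)
        (fun a b h => congrArg Subtype.val h) fun a => ⟨a.1, rfl⟩
    | succ n ih =>
      intro T hn h0 hJ hc hr
      obtain ⟨p, hp, hmin⟩ := wf.has_min ({q | SupIrred q} \ T)
        (Set.nonempty_of_ncard_ne_zero (by omega))
      refine ih (insert p T) ?_ (h0.trans (Set.subset_insert _ _)) ?_ ?_
        (rep_step (fun q hq => good_of_closed hJ hc hq) p hr)
      · have e : {q | SupIrred q} \ insert p T = ({q | SupIrred q} \ T) \ {p} := by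
          ext q; simp only [Set.mem_sdiff, Set.mem_insert_iff, Set.mem_singleton_iff]; tauto
        rw [e, Set.ncard_sdiff_singleton_of_mem hp, hn]; rfl
      · rintro q (rfl | hq)
        · exact hp.1
        · exact hJ q hq
      · rintro q (rfl | hq) r hd
        · by_contra hr'
          have h1 : r ∉ T := fun hh => hr' (Set.mem_insert_of_mem _ hh)
          have c1 : Collapsed f q := by
            by_contra hh; exact hp.2 (h0 ⟨hp.1, hh⟩)
          have c2 : Collapsed f r := by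
            by_contra hh; exact h1 (h0 ⟨hd.2.1, hh⟩)
          exact hmin r ⟨hd.2.1, h1⟩ (Relation.TransGen.single ⟨hd, c1, c2⟩)
        · exact Set.mem_insert_of_mem _ (hc q hq r hd)
  exact main _ T0 rfl subset_rfl (fun q hq => hq.1) c0 r0

end Vale.Agent.P183
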