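import Mathlib

namespace Vale.Agent.P183

/-- a finite algebra: carrier `Fin (n+1)`, finitely many total operations of finite arity -/
structure FinAlg where
  n : ℕ
  k : ℕ
  ar : Fin k → ℕ
  op : (i : Fin k) → (Fin (ar i) → Fin (n + 1)) → Fin (n + 1)

/-- congruences: equivalence relations compatible with every operation -/
def FinAlg.IsCon (A : FinAlg) (r : Setoid (Fin (A.n + 1))) : Prop :=
  ∀ (i : Fin A.k) (v w : Fin (A.ar i) → Fin (A.n + 1)), (∀ j, r (v j) (w j)) →
    r (A.op i v) (A.op i w)

/-- `(α, le)` is order isomorphic to the set of all congruences of a finite algebra under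
inclusion -/
def Rep (α : Type) (le : α → α → Prop) : Prop :=
  ∃ (A : FinAlg) (e : α ≃ {r : Setoid (Fin (A.n + 1)) // A.IsCon r}),
    ∀ a b, le a b ↔ ∀ s t, (e a).1 s t → (e b).1 s t

end Vale.Agent.P183
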